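import Vale.Agent.H17.FoulkesWeight

/-!
The Foulkes–Howe map `Sym^a(Sym^b V) → Sym^b(Sym^a V)` is injective for every `V` as soon as
`b ≥ a^2 (a - 2)`; injectivity propagates from `b₀ ≥ a - 1` to all larger `b` for each fixed `V`;
and the multiplicity inequalities hold for all partitions with a part at least `ab - b - 1`.
-/

namespace Vale.Agent.Results.P181.CubicThreshold

open Vale.Agent.H17.Foulkes

theorem result :
    -- (0) `psi` is the canonical equivariant map, up to a nonzero scalar
    (∀ a b n : ℕ, PsiCanonical a b n) ∧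
    -- (1) injectivity for every `n` once `a ^ 2 * (a - 2) ≤ b`
    (∀ a b : ℕ, 1 ≤ a → a ^ 2 * (a - 2) ≤ b → ∀ n : ℕ, PsiInjective a b n ∧ Embeds a b n ∧
      ∀ lam : Fin n → ℕ, mult a b n lam ≤ mult b a n lam) ∧
    -- (2) propagation in `b`, for each fixed `n`
    (∀ a b₀ b n : ℕ, a ≤ b₀ + 1 → b₀ ≤ b → PsiInjective a b₀ n → PsiInjective a b n) ∧
    -- (3) all `a`, `b`: weights with a part at least `a * b - b - 1`
    (∀ (a b n : ℕ) (s : Fin n),
      (∀ T : Tens (Fin a × Fin b) n, IsSymSym T →
        (∀ N, T N ≠ 0 → (Finset.univ.filter fun z => N z ≠ s).card ≤ b + 1) →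
        psi T = 0 → T = 0) ∧
      (∀ lam : Fin n → ℕ, a * b ≤ lam s + b + 1 → mult a b n lam ≤ mult b a n lam)) := by
  refine ⟨psi_canonical, ?_, ?_, ?_⟩
  · intro a b ha hb n
    have h : PsiInjective a b n := by
      intro T hT hΨ
      refine inj_cubic ha (le_trans (le_of_eq ?_) hb) T hT hΨ
      rcases Nat.lt_or_ge a 2 with h2 | h2
      · have : a = 1 := by omega
        subst this
        rfl
      · obtain ⟨c, rfl⟩ : ∃ c, a = c + 2 := ⟨a - 2, by omega⟩
        have h3 : c + 2 - 1 = c + 1 := by omega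
        have h4 : c + 2 - 2 = c := by omega
        have h5 : (c + 1) * (c + 1) - 1 = c * (c + 2) := by
          have : (c + 1) * (c + 1) = c * (c + 2) + 1 := by ring
          omega
        rw [h3, h4, h5]
        ring
    exact ⟨h, embeds_of_inj h, fun lam => mult_le_of_inj lam h⟩
  · intro a b₀ b n hab hb h
    exact propagation hab h b hb
  · intro a b n s
    refine ⟨fun T hT hs hΨ => inj_weight_plus T hT s (fun N hN => ?_) hΨ,
      fun lam hlam => mult_le_of_first_plus lam s hlam⟩
    convert hs N hN

end Vale.Agent.Results.P181.CubicThreshold
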