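import Vale.Agent.H17.FoulkesFinal

/-!
The Foulkes–Howe map `Sym^a(Sym^b V) → Sym^b(Sym^a V)` is injective for every `V` as soon as
`a^5 ≤ b`; an explicit bound depending on `dim V`; and the multiplicity inequalities of Foulkes'
conjecture for all partitions with a part at least `ab - b`, for all `a`, `b`.
-/

namespace Vale.Agent.Results.P181.PolyThreshold

open Vale.Agent.H17.Foulkes

theorem result :
    -- (0) `psi` is the canonical equivariant map, up to a nonzero scalar
    (∀ a b n : ℕ, PsiCanonical a b n) ∧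
    -- (1) injectivity for every `n` once `a ^ 5 ≤ b`
    (∀ a b : ℕ, 1 ≤ a → a ^ 5 ≤ b → ∀ n : ℕ, PsiInjective a b n ∧ Embeds a b n ∧
      ∀ lam : Fin n → ℕ, mult a b n lam ≤ mult b a n lam) ∧
    -- (2) the bound depending on `dim V = N + 1`
    (∀ a b N : ℕ, 1 ≤ a → (a - 1) * N + (a * N + 1) * ((a - 1) * ((a - 1) * N)) ≤ b →
      PsiInjective a b (N + 1) ∧ Embeds a b (N + 1) ∧
      ∀ lam : Fin (N + 1) → ℕ, mult a b (N + 1) lam ≤ mult b a (N + 1) lam) ∧
    -- (3) all `a`, `b`: weights with a part at least `a * b - b`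
    (∀ (a b n : ℕ) (s : Fin n),
      (∀ T : Tens (Fin a × Fin b) n, IsSymSym T →
        (∀ N, T N ≠ 0 → (Finset.univ.filter fun z => N z ≠ s).card ≤ b) →
        psi T = 0 → T = 0) ∧
      (∀ lam : Fin n → ℕ, a * b ≤ lam s + b → mult a b n lam ≤ mult b a n lam)) := by
  refine ⟨psi_canonical, ?_, ?_, ?_⟩
  · intro a b ha hb n
    have h : PsiInjective a b n := fun T hT hΨ =>
      inj_all ha ((bound_le a).trans hb) T hT hΨ
    exact ⟨h, embeds_of_inj h, fun lam => mult_le_of_inj lam h⟩
  · intro a b N ha hb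
    have h : PsiInjective a b (N + 1) := fun T hT hΨ => inj_dim N rfl ha hb T hT hΨ
    exact ⟨h, embeds_of_inj h, fun lam => mult_le_of_inj lam h⟩
  · intro a b n s
    refine ⟨fun T hT hs hΨ => inj_weight T hT s (fun N hN => ?_) hΨ, fun lam hlam => ?_⟩
    · convert hs N hN
    · rw [mult_eq, mult_eq]
      exact mult_le_of_first lam s hlam

end Vale.Agent.Results.P181.PolyThreshold
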